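import Vale.Agent.P246.R3.H816.Defs

/-! # P246.FreeFactor, row FLAT -/

namespace Vale.Agent.P246.R3.H315

open Vale.Agent.P246 Vale.Agent.P246.H816

variable {G H : Type} [Group G] [Group H]

open Classical in
/-- The `ν`-component of `s ∈ ℤ[H]`. -/
noncomputable def Ph (ι : G →* H) (ρ : H →* G) (ν : H) : ZG H →+ ZG G :=
  MonoidAlgebra.liftNC (Int.castAddHom (ZG G)) fun h => if h * (ι (ρ h))⁻¹ = ν then elt (ρ h) else 0

open Classical in
theorem Ph_single (ι : G →* H) (ρ : H →* G) (ν h : H) (r : ℤ) :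
    Ph ι ρ ν (MonoidAlgebra.single h r) =
      (r : ZG G) * (if h * (ι (ρ h))⁻¹ = ν then elt (ρ h) else 0) := by
  rw [Ph, MonoidAlgebra.liftNC_single]
  rfl

theorem elt_mul' (a b : G) : (elt a : ZG G) * elt b = elt (a * b) := by
  simp [elt, MonoidAlgebra.single_mul_single]

theorem single_eq (h : G) (r : ℤ) :
    (MonoidAlgebra.single h r : ZG G) = (r : ZG G) * elt h := by
  rw [← zsmul_eq_mul]
  simp [elt, MonoidAlgebra.smul_single]

theorem rh_elt (φ : G →* H) (g : G) : rh φ (elt g) = elt (φ g) := by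
  simp [rh, elt]

theorem Ph_mul (ι : G →* H) (ρ : H →* G) (hι : ∀ g, ρ (ι g) = g) (ν : H) (s : ZG H) (r : ZG G) :
    Ph ι ρ ν (s * rh ι r) = Ph ι ρ ν s * r := by
  classical
  induction s using MonoidAlgebra.induction_linear with
  | zero => simp
  | add f g hf hg => rw [add_mul, map_add, map_add, add_mul, hf, hg]
  | single h a =>
    induction r using MonoidAlgebra.induction_linear with
    | zero => simp
    | add f g hf hg => rw [map_add, mul_add, map_add, mul_add, hf, hg]
    | single g b =>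
      have h1 : (MonoidAlgebra.single h a : ZG H) * rh ι (MonoidAlgebra.single g b) =
          MonoidAlgebra.single (h * ι g) (a * b) := by
        rw [rh, MonoidAlgebra.mapDomainRingHom_apply, MonoidAlgebra.mapDomain_single,
          MonoidAlgebra.single_mul_single]
      rw [h1, Ph_single, Ph_single, single_eq]
      have h2 : h * ι g * (ι (ρ (h * ι g)))⁻¹ = h * (ι (ρ h))⁻¹ := by
        rw [map_mul, hι, map_mul]; group
      rw [h2]
      by_cases hc : h * (ι (ρ h))⁻¹ = ν
      · rw [if_pos hc, if_pos hc, map_mul, hι, ← elt_mul']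
        push_cast
        rw [mul_assoc, mul_assoc, ← mul_assoc (b : ZG G) (elt (ρ h)), Int.cast_comm b (elt (ρ h)), mul_assoc]
      · rw [if_neg hc, if_neg hc]; simp

theorem exists_supp (ι : G →* H) (ρ : H →* G) (s : ZG H) :
    ∃ T : Finset H, ∀ T' : Finset H, T ⊆ T' →
      s = ∑ ν ∈ T', elt ν * rh ι (Ph ι ρ ν s) := by
  classical
  induction s using MonoidAlgebra.induction_linear with
  | zero => exact ⟨∅, fun T' _ => by simp⟩
  | add f g hf hg =>
    obtain ⟨T1, h1⟩ := hf
    obtain ⟨T2, h2⟩ := hg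
    refine ⟨T1 ∪ T2, fun T' hT => ?_⟩
    have e1 := h1 T' (Finset.union_subset_left hT)
    have e2 := h2 T' (Finset.union_subset_right hT)
    conv_lhs => rw [e1, e2]
    rw [← Finset.sum_add_distrib]
    refine Finset.sum_congr rfl fun ν _ => ?_
    rw [map_add, map_add, mul_add]
  | single h a =>
    refine ⟨{h * (ι (ρ h))⁻¹}, fun T' hT => ?_⟩
    rw [Finset.sum_eq_single_of_mem (h * (ι (ρ h))⁻¹) (hT (Finset.mem_singleton_self _))]
    · rw [Ph_single, if_pos rfl, map_mul, rh_elt, map_intCast, ← mul_assoc, ← Int.cast_comm,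
        mul_assoc, elt_mul', single_eq]
      congr 2
      group
    · intro ν _ hν
      rw [Ph_single, if_neg (fun h' => hν h'.symm)]
      simp

theorem lin_expand {R : Type} [Ring R] {a b : ℕ} (M : (Fin a → R) →ₗ[R] (Fin b → R))
    (x : Fin a → R) (k : Fin b) : M x k = ∑ i, x i * M (Pi.single i 1) k := by
  classical
  have h : x = ∑ i, x i • (Pi.single i (1 : R) : Fin a → R) := by
    funext j
    rw [Finset.sum_apply]
    simp [Pi.single_apply]
  conv_lhs => rw [h, map_sum, Finset.sum_apply]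
  refine Finset.sum_congr rfl fun i _ => ?_
  rw [map_smul]
  rfl

theorem up_apply {R S : Type} [Ring R] [Ring S] (φ : R →+* S) {a b : ℕ}
    (M : (Fin a → R) →ₗ[R] (Fin b → R)) (v : Fin a → S) (k : Fin b) :
    H816.up φ M v k = ∑ i, v i * φ (M (Pi.single i 1) k) := by
  rw [H816.up, Fintype.linearCombination_apply, Finset.sum_apply]
  rfl

theorem row : SpecFLAT := by
  classical
  intro G H _ _ ι ρ hι a b c M N hMN v hv
  -- components
  have hx : ∀ ν, M (fun i => Ph ι ρ ν (v i)) = 0 := by
    intro ν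
    funext k
    rw [lin_expand]
    have h1 := congrFun hv k
    rw [up_apply] at h1
    have h2 := congrArg (Ph ι ρ ν) h1
    rw [map_sum] at h2
    simp only [Ph_mul ι ρ hι, Pi.zero_apply, map_zero] at h2
    exact h2
  choose y hy using fun ν => hMN _ (hx ν)
  choose T hT using fun i => exists_supp ι ρ (v i)
  let T' : Finset H := Finset.univ.biUnion T
  have hv' : ∀ i, v i = ∑ ν ∈ T', elt ν * rh ι (Ph ι ρ ν (v i)) := fun i =>
    hT i T' (Finset.subset_biUnion_of_mem T (Finset.mem_univ i))
  refine ⟨fun j => ∑ ν ∈ T', elt ν * rh ι (y ν j), ?_⟩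
  funext i
  rw [up_apply]
  conv_rhs => rw [hv' i]
  simp only [Finset.sum_mul]
  rw [Finset.sum_comm]
  refine Finset.sum_congr rfl fun ν _ => ?_
  have h3 := congrFun (hy ν) i
  rw [lin_expand] at h3
  rw [← h3, map_sum, Finset.mul_sum]
  refine Finset.sum_congr rfl fun j _ => ?_
  rw [map_mul, mul_assoc]

end Vale.Agent.P246.R3.H315
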